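import Vale.Agent.P065.R2.H841.Pad
import Vale.Agent.P065.Bdl.B1

/-!
# P065: lower `k`-edges inject in `(k + 1)`-sets (row D of helper841, helper855)
-/

set_option autoImplicit false

namespace Vale.Agent.P065.R2.H841.H855

open Finset Vale.Agent.P065.UB Vale.Agent.P065 Vale.Agent.P065.U.H792.Trans
  Vale.Agent.P065.R2.H841

/-- ROW D -/
theorem specD {P : Finset Pt} (hP : Good P) (k : ℕ) : #(Ed P k) ≤ kSetNumber P (k + 1) := by
  classical
  have key : ∀ U : Finset ({x // x ∈ P} × {x // x ∈ P}),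
      (∀ x ∈ U, ((x.1 : Pt), (x.2 : Pt)) ∈ Ed P k) → #U ≤ kSetNumber P (k + 1) := by
    intro U hU
    have him : Finset.image (fun x : {x // x ∈ P} => (x : ℝ × ℝ))
        (univ : Finset {x // x ∈ P}) = P := by
      ext z
      simp
    have h3 := Vale.Agent.P065.Pt.card_le_kSetNumber (fun x : {x // x ∈ P} => (x : ℝ × ℝ))
      Subtype.val_injective U (k + 1) (fun x hx => by
        obtain ⟨a1, a2, a3, a4⟩ := mem_Ed.1 (hU x hx)
        exact a3) (fun x hx c hc1 hc2 => by
        obtain ⟨a1, a2, a3, a4⟩ := mem_Ed.1 (hU x hx)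
        have hne : (x.1 : Pt) ≠ (x.2 : Pt) := fun h => by
          rw [h] at a3
          exact lt_irrefl _ a3
        show orient (x.1 : Pt) (x.2 : Pt) (c : Pt) ≠ 0
        rw [orient_eq a3.ne]
        refine mul_ne_zero (sub_ne_zero.2 a3.ne') (sub_ne_zero.2 fun h => ?_)
        exact hP.gen _ x.1 x.1.2 x.2 x.2.2 c c.2 hne (fun h' => hc1 (Subtype.ext h'.symm))
          (fun h' => hc2 (Subtype.ext h'.symm))
          ((edge_ht ((x.1 : Pt), (x.2 : Pt)) a3).symm) h.symm) (fun x hx => by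
        obtain ⟨a1, a2, a3, a4⟩ := mem_Ed.1 (hU x hx)
        unfold g0 at a4
        congr 1
        rw [← a4, ← card_image_of_injective _ (Subtype.val_injective (p := fun x => x ∈ P))]
        congr 1
        ext v
        simp only [mem_image, mem_filter, mem_univ, true_and, Subtype.exists, exists_and_right,
          exists_eq_right]
        have hpos : 0 < (x.2 : Pt).1 - (x.1 : Pt).1 := sub_pos.2 a3
        constructor
        · rintro ⟨hv, h5⟩
          refine ⟨hv, ?_⟩
          have h6 : orient (x.1 : Pt) (x.2 : Pt) v < 0 := h5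
          rw [orient_eq a3.ne] at h6
          by_contra h7
          have h8 : ht (sl (x.1 : Pt) (x.2 : Pt)) (x.1 : Pt) ≤ ht (sl (x.1 : Pt) (x.2 : Pt)) v :=
            not_lt.1 h7
          have : 0 ≤ ((x.2 : Pt).1 - (x.1 : Pt).1) *
              (ht (sl (x.1 : Pt) (x.2 : Pt)) v - ht (sl (x.1 : Pt) (x.2 : Pt)) (x.1 : Pt)) :=
            mul_nonneg hpos.le (by linarith)
          linarith
        · rintro ⟨hv, h5⟩
          refine ⟨hv, ?_⟩
          show orient (x.1 : Pt) (x.2 : Pt) v < 0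
          rw [orient_eq a3.ne]
          have h5' : ht (sl (x.1 : Pt) (x.2 : Pt)) v <
            ht (sl (x.1 : Pt) (x.2 : Pt)) (x.1 : Pt) := h5
          exact mul_neg_of_pos_of_neg hpos (by linarith))
    rwa [him] at h3
  have h1 : Ed P k ⊆ ((univ : Finset ({x // x ∈ P} × {x // x ∈ P})).filter
      (fun x => ((x.1 : Pt), (x.2 : Pt)) ∈ Ed P k)).image
        (fun x => ((x.1 : Pt), (x.2 : Pt))) := by
    intro e he
    obtain ⟨a1, a2, a3, a4⟩ := mem_Ed.1 he
    exact mem_image.2 ⟨(⟨e.1, a1⟩, ⟨e.2, a2⟩), mem_filter.2 ⟨mem_univ _, he⟩, rfl⟩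
  refine ((card_le_card h1).trans card_image_le).trans (key _ ?_)
  intro x hx
  exact (mem_filter.1 hx).2

end Vale.Agent.P065.R2.H841.H855
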